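import Mathlib
import Vale.Agent.P333.Y.Parts
import Vale.Agent.P333.H70.B3

set_option linter.all false

/-!
P333, ratio `2`: the output is a superstring (`PartC`); one circle (`PartB4b`).
-/

namespace Vale.Agent.P333.H241

open Vale.Agent.P333 Vale.Agent.P333.U Vale.Agent.P333.E Vale.Agent.P333.G
  Vale.Agent.Lib.PolyTime Vale.Agent.P333.Y

/-- The shortest element of a list: membership. -/
theorem foldl_min_mem (l : List (List ℕ)) (u : List ℕ) :
    l.foldl (fun u v => if v.length < u.length then v else u) u = u ∨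
      l.foldl (fun u v => if v.length < u.length then v else u) u ∈ l := by
  induction l generalizing u with
  | nil => left; rfl
  | cons v l ih =>
    rw [List.foldl_cons]
    rcases ih (if v.length < u.length then v else u) with h | h
    · rw [h]
      by_cases h2 : v.length < u.length
      · right
        rw [if_pos h2]
        exact List.mem_cons_self
      · left
        rw [if_neg h2]
    · right
      exact List.mem_cons_of_mem _ h

/-- The shortest element of a list: length. -/
theorem foldl_min_le (l : List (List ℕ)) (u : List ℕ) :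
    (l.foldl (fun u v => if v.length < u.length then v else u) u).length ≤ u.length ∧
      ∀ v ∈ l, (l.foldl (fun u v => if v.length < u.length then v else u) u).length ≤ v.length := by
  induction l generalizing u with
  | nil => exact ⟨le_refl _, fun v hv => absurd hv (by simp)⟩
  | cons w l ih =>
    rw [List.foldl_cons]
    obtain ⟨h1, h2⟩ := ih (if w.length < u.length then w else u)
    have h3 : (if w.length < u.length then w else u).length ≤ u.length ∧
        (if w.length < u.length then w else u).length ≤ w.length := by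
      split <;> constructor <;> omega
    refine ⟨h1.trans h3.1, fun v hv => ?_⟩
    rcases List.mem_cons.1 hv with rfl | hv
    · exact h1.trans h3.2
    · exact h2 v hv

theorem outW_le {L : List Cir} {c : Cir} {v : List ℕ} (hv : v ∈ cnds L c) :
    (outW L c).length ≤ v.length := (foldl_min_le (cnds L c) (mergeL c)).2 v hv

/-- B4b: one circle. -/
theorem partB4b : PartB4b := by
  intro L c C hC hc
  rw [← length_mergeL' C]
  refine outW_le ?_
  unfold cnds
  refine List.mem_append_right _ (List.mem_map_of_mem (List.mem_filter.2 ⟨hC, ?_⟩))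
  rw [List.all_eq_true]
  exact fun s hs => decide_eq_true (hc s hs)

theorem spre_cont {c : Cir} (w : List ℕ) {s : List ℕ} (hs : s ∈ c) : s <:+: spre c w := by
  unfold spre
  cases hf : ((List.range (w.length + 1)).map (fun l => w.take l)).find?
      (fun u => c.all (fun s => infB s u)) with
  | none => exact infix_mergeL hs
  | some u =>
    have h := List.find?_some hf
    rw [List.all_eq_true] at h
    exact (infB_iff _ _).1 (h s hs)

theorem outW_cont (L : List Cir) {c : Cir} {s : List ℕ} (hs : s ∈ c) : s <:+: outW L c := by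
  unfold outW
  rcases foldl_min_mem (cnds L c) (mergeL c) with h | h
  · rw [h]
    exact infix_mergeL hs
  · generalize (cnds L c).foldl (fun u v => if v.length < u.length then v else u) (mergeL c) = z at h
    unfold cnds at h
    rcases List.mem_append.1 h with h | h
    · obtain ⟨i, -, rfl⟩ := List.mem_map.1 h
      exact spre_cont _ hs
    · obtain ⟨d, hd, rfl⟩ := List.mem_map.1 h
      have h2 := (List.mem_filter.1 hd).2
      rw [List.all_eq_true] at h2
      exact infix_mergeL (of_decide_eq_true (h2 s hs))

theorem mem_trav {n : Cir} (a h : List ℕ) {s : List ℕ} (hs : s ∈ n) : s ∈ trav n a h := by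
  unfold trav
  exact List.mem_append_left _ (List.mem_rotate.2 hs)

theorem mem_walkY (B : ℕ) {F κ : List Cir} {n : Cir} (hn : n ∈ κ) (hF : n ∈ F) {s : List ℕ}
    (hs : s ∈ n) : s ∈ walkY B F κ := by
  have h1 : n ∈ (cprs [] κ).map Prod.snd := (cprs_snd [] κ).mem_iff.2 hn
  obtain ⟨e, he, rfl⟩ := List.mem_map.1 h1
  have h2 : ((e, pk B F e.1 e.2) : (Cir × Cir) × ((List ℕ × ℕ) × (List ℕ × ℕ))) ∈ arcsY B F κ :=
    List.mem_map.2 ⟨e, he, rfl⟩
  rw [← cprs_fst (([], []), ([], 0), ([], 0)) (arcsY B F κ)] at h2
  obtain ⟨f, hf, hfe⟩ := List.mem_map.1 h2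
  unfold walkY
  refine List.mem_flatten.2 ⟨_, List.mem_map_of_mem hf, ?_⟩
  have h3 : f.1.1.2 = e.2 := by rw [hfe]
  unfold seg
  rw [h3, if_pos (decide_eq_true hF)]
  exact mem_trav _ _ hs

theorem mem_nodes_of_mem {L F : List Cir} {C : Cir} (hC : C ∈ L) (hF : C ∈ F) :
    C ∈ nodes L F := by
  unfold nodes
  refine List.mem_flatMap.2 ⟨C, hC, ?_⟩
  rw [if_pos (decide_eq_true hF)]
  exact List.mem_singleton.2 rfl

/-- Every string is in one of the walks. -/
theorem mem_walks0 (B : ℕ) {L F : List Cir} (P : List ℕ) {C : Cir} (hC : C ∈ L) {s : List ℕ}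
    (hs : s ∈ C) : ∃ w ∈ walks0 B L F P, s ∈ w := by
  unfold walks0
  by_cases hF : C ∈ F
  · obtain ⟨i, hi, hiC⟩ := List.mem_iff_getElem.1 (mem_nodes_of_mem hC hF)
    have hok := joinFold_ok (nodes L F).length
      (arcsS (gmat B F (nodes L F)) P (nodes L F).length)
    have h1 : i ∈ (joinFold (nodes L F).length
        (arcsS (gmat B F (nodes L F)) P (nodes L F).length)).flatten :=
      hok.2.mem_iff.2 (List.mem_range.2 hi)
    obtain ⟨κ, hκ, hiκ⟩ := List.mem_flatten.1 h1
    refine ⟨walkY B F (κ.map (fun i => (nodes L F).getD i [])), List.mem_append_right _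
      (List.mem_map_of_mem (List.mem_map_of_mem hκ)), mem_walkY B (n := C) ?_ hF hs⟩
    refine List.mem_map.2 ⟨i, hiκ, ?_⟩
    rw [List.getD_eq_getElem _ _ hi]
    exact hiC
  · exact ⟨C, List.mem_append_left _ (List.mem_filter.2 ⟨hC, by simpa using hF⟩), hs⟩

/-- C: the output is a superstring. -/
theorem partC : PartC := by
  intro S L F P hS hL hF hP s hs
  obtain ⟨C, hC, hsC⟩ := List.mem_flatten.1 (hL.perm.mem_iff.2 hs)
  obtain ⟨w, hw, hsw⟩ := mem_walks0 (bnd S) (F := F) P hC hsC
  have h1 : s ∈ (spliceAll (walks0 (bnd S) L F P)).flatten :=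
    (H70.spliceAll_perm' _).mem_iff.2 (List.mem_flatten.2 ⟨w, hw, hsw⟩)
  obtain ⟨W, hW, hsW⟩ := List.mem_flatten.1 h1
  refine (outW_cont L hsW).trans ?_
  obtain ⟨l1, l2, hl⟩ := List.append_of_mem (List.mem_map_of_mem (f := outW L) hW)
  unfold outF
  rw [hl, List.flatten_append, List.flatten_cons]
  exact ⟨l1.flatten, l2.flatten, by simp⟩

end Vale.Agent.P333.H241
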