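import Mathlib
import Vale.Agent.P333.X.T

set_option linter.all false

/-!
P333: a superstring gives a cyclic order of the strings of cost at most its length; every proper
subfamily is left by it.
-/

namespace Vale.Agent.P333.H241

open Vale.Agent.P333 Vale.Agent.P333.U Vale.Agent.P333.E Vale.Agent.P333.G Vale.Agent.P333.X

/-- The cyclic order by positions. -/
theorem cycKey (S : List (List ℕ)) (d : List ℕ → List ℕ → ℕ) (n : ℕ)
    (pos : List ℕ → ℕ) (hn : ∀ s ∈ S, pos s + s.length ≤ n)
    (hne : ∀ s ∈ S, ∀ t ∈ S, s ≠ t → pos s ≠ pos t)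
    (hc : ∀ s ∈ S, ∀ t ∈ S, pos s < pos t → s.length - d s t ≤ pos t - pos s)
    (m : ℕ) (s : Fin m → List ℕ) (hm : 0 < m) (hs : ∀ i, s i ∈ S) (hinj : Function.Injective s) :
    ∃ σ : Equiv.Perm (Fin m),
      (∑ i, ((s i).length - d (s i) (s (σ i)))) ≤ n ∧
      ∀ A : Set (Fin m), A.Nonempty → (∃ i, i ∉ A) → ∃ i, i ∈ A ∧ σ i ∉ A := by
  rcases m with _ | m
  · omega
  set f : Fin (m + 1) → ℕ := fun i => pos (s i) with hf
  set τ := Tuple.sort f with hτ
  have hmono : Monotone (f ∘ τ) := Tuple.monotone_sort f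
  have hfinj : Function.Injective f := by
    intro i j hij
    by_contra h
    exact hne (s i) (hs i) (s j) (hs j) (fun h' => h (hinj h')) hij
  have hsm : StrictMono (f ∘ τ) := hmono.strictMono_of_injective (hfinj.comp τ.injective)
  have hrot : ∀ k : Fin m, finRotate (m + 1) k.castSucc = k.succ := by
    intro k
    rw [finRotate_succ_apply]
    exact Fin.coeSucc_eq_succ
  refine ⟨(τ.symm.trans (finRotate (m + 1))).trans τ, ?_, ?_⟩
  · rw [← Equiv.sum_comp τ]
    rw [Fin.sum_univ_castSucc]
    have e2 := sum_tele m (f ∘ τ) hmono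
    have e3 : ∑ k : Fin m, ((s (τ k.castSucc)).length -
        d (s (τ k.castSucc)) (s (((τ.symm.trans (finRotate (m + 1))).trans τ) (τ k.castSucc)))) ≤
        ∑ k : Fin m, ((f ∘ τ) k.succ - (f ∘ τ) k.castSucc) := by
      refine Finset.sum_le_sum fun k _ => ?_
      have h2 : ((τ.symm.trans (finRotate (m + 1))).trans τ) (τ k.castSucc) = τ k.succ := by
        simp [hrot]
      rw [h2]
      exact hc _ (hs _) _ (hs _) (hsm Fin.castSucc_lt_succ)
    have e4 := hn (s (τ (Fin.last m))) (hs _)
    have e6 : (f ∘ τ) (Fin.last m) = pos (s (τ (Fin.last m))) := rfl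
    omega
  · intro A hA hB
    by_contra hcon
    push Not at hcon
    obtain ⟨i0, hi0⟩ := hA
    obtain ⟨i1, hi1⟩ := hB
    have step : ∀ k, τ k ∈ A → τ (k + 1) ∈ A := by
      intro k hk
      have := hcon (τ k) hk
      simpa using this
    have h0 : ∀ k, τ k ∈ A → τ 0 ∈ A := by
      intro k
      induction k using Fin.reverseInduction with
      | last =>
        intro h
        have := step _ h
        rwa [Fin.last_add_one] at this
      | cast k ih =>
        intro h
        apply ih
        have := step _ h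
        rwa [Fin.coeSucc_eq_succ] at this
    have all : ∀ k, τ k ∈ A := by
      intro k
      induction k using Fin.induction with
      | zero => exact h0 (τ.symm i0) (by simpa using hi0)
      | succ k ih =>
        have := step _ ih
        rwa [Fin.coeSucc_eq_succ] at this
    have := all (τ.symm i1)
    rw [Equiv.apply_symm_apply] at this
    exact hi1 this

/-- **TCyc**: a superstring gives a cyclic order of the strings of cost at most its length, and every
subfamily which contains a string of `S` but not all of them is left by it. -/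
theorem tCyc (S : List (List ℕ)) (T : List ℕ) (hS : Sfree S) (hne : S ≠ [])
    (hT : IsSuperstring S T) :
    ∃ σ : Equiv.Perm (Fin S.length), cost ov S σ ≤ T.length ∧
      (∀ A : Set (Fin S.length), A.Nonempty → (∃ i, i ∉ A) → ∃ i, i ∈ A ∧ σ i ∉ A) ∧
      ∀ D : List (List ℕ), (∃ s ∈ D, s ∈ S) → (∃ s ∈ S, s ∉ D) →
        ∃ i, S.get i ∈ D ∧ S.get (σ i) ∉ D := by
  have hocc : ∀ s : List ℕ, ∃ a, s ∈ S →
      (a + s.length ≤ T.length ∧ OccAt (fun i => T.getD i 0) s a) := by
    intro s
    by_cases h : s ∈ S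
    · obtain ⟨a, h1, h2⟩ := XT607.exists_occ (hT s h)
      exact ⟨a, fun _ => ⟨h1, h2⟩⟩
    · exact ⟨0, fun h' => absurd h' h⟩
  choose pos hpos using hocc
  have hnd := XT607.sfree_nodup hS
  obtain ⟨σ, h1, h2⟩ := cycKey S ov T.length pos (fun s hs => (hpos s hs).1)
    (by
      intro s hs t ht hst he
      refine XT607.pos_ne (hpos s hs).2 ?_ (XT607.sfree_or hS hs ht hst)
      rw [he]
      exact (hpos t ht).2)
    (by
      intro s hs t ht hst
      refine (hpos s hs).2.gap_le (hpos t ht).2 hst ?_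
      by_cases h : s = t
      · exact Or.inl h
      · exact Or.inr (XT607.sfree_or hS hs ht h).2)
    S.length S.get (List.length_pos_of_ne_nil hne) (fun i => List.get_mem _ _)
    (List.nodup_iff_injective_get.1 hnd)
  refine ⟨σ, h1, h2, fun D hD hD2 => ?_⟩
  obtain ⟨s, hs1, hs2⟩ := hD
  obtain ⟨i, hi⟩ := List.mem_iff_get.1 hs2
  obtain ⟨t, ht1, ht2⟩ := hD2
  obtain ⟨j, hj⟩ := List.mem_iff_get.1 ht1
  exact h2 {i | S.get i ∈ D} ⟨i, by rw [Set.mem_setOf_eq, hi]; exact hs1⟩
    ⟨j, by rw [Set.mem_setOf_eq, hj]; exact ht2⟩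

end Vale.Agent.P333.H241
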