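import Vale.Agent.P333.H241.Tg.Main
import Vale.Agent.P333.H705.GrG

set_option autoImplicit false

/-!
P333: a family for which every output of the greedy algorithm is longer than twice a shortest
superstring.
-/

namespace Vale.Agent.P333.H241

open Vale.Agent.P333

/-- 19 strings; every output of the greedy algorithm has length 1187, a common superstring has
length 588. -/
theorem every_output : ∃ S : List (List ℕ), Greedy.Reduced S S ∧ (∃ t, Greedy.Output S t) ∧
    ∀ t, Greedy.Output S t → 2 * opt S < t.length ∧ 1187 * opt S ≤ 588 * t.length := by
  obtain ⟨h1, h2, h3⟩ := Tg.main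
  refine ⟨Tg.S, h1, H705.Gr.exists_output (by unfold Tg.S; simp), ?_⟩
  intro t ht
  have h4 := h3 t ht
  omega

end Vale.Agent.P333.H241
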