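import Vale.Agent.P333.H705.GrDefs

set_option autoImplicit false

/-!
P333: greedy runs in which every tie breaking gives the same length.
-/

namespace Vale.Agent.P333.H241

open Vale.Agent.P333

/-! ### Boolean checks -/

/-- is the first list a prefix of the second one -/
def pre : List ℕ → List ℕ → Bool
  | [], _ => true
  | _ :: _, [] => false
  | a :: x, b :: y => Nat.beq a b && pre x y

theorem pre_iff : ∀ x y : List ℕ, pre x y = true ↔ x <+: y
  | [], y => by simp [pre]
  | a :: x, [] => by simp [pre]
  | a :: x, b :: y => by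
      have ih := pre_iff x y
      simp only [pre, Bool.and_eq_true, Nat.beq_eq, List.cons_prefix_cons, ih]

/-- no suffix of the list (of length `n`) longer than `k` is a prefix of `w` -/
def noOv (k : ℕ) (w : List ℕ) : List ℕ → ℕ → Bool
  | [], _ => true
  | a :: z, n => Nat.ble n k || (not (pre (a :: z) w) && noOv k w z (n - 1))

theorem noOv_spec (k : ℕ) (w : List ℕ) : ∀ (z : List ℕ) (n : ℕ), n = z.length →
    noOv k w z n = true → ∀ u : List ℕ, u <:+ z → u <+: w → u.length ≤ k := by
  intro z
  induction z with
  | nil =>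
      intro n _ _ u hu _
      have : u = [] := List.suffix_nil.1 hu
      subst this
      simp
  | cons a z ih =>
      intro n hn h u hu hw
      simp only [noOv, Bool.or_eq_true, Bool.and_eq_true] at h
      rcases h with h | ⟨h1, h2⟩
      · have h3 : n ≤ k := Nat.le_of_ble_eq_true h
        have h4 := hu.length_le
        omega
      · rcases List.suffix_cons_iff.1 hu with h3 | h3
        · subst h3
          have h5 := (pre_iff _ _).2 hw
          rw [h5] at h1
          simp at h1
        · refine ih (n - 1) ?_ h2 u h3 hw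
          simp at hn
          omega

/-- is `s` a substring of the second list -/
def inf (s : List ℕ) : List ℕ → Bool
  | [] => pre s []
  | a :: t => pre s (a :: t) || inf s t

theorem inf_iff (s : List ℕ) : ∀ t : List ℕ, inf s t = true ↔ s <:+: t
  | [] => by
      rw [inf, pre_iff]
      simp
  | a :: t => by
      have ih := inf_iff s t
      rw [inf, Bool.or_eq_true, pre_iff, ih, List.infix_cons_iff]

/-- no member is a substring of another member -/
def free (F : List (List ℕ)) : Bool :=
  F.all fun z => F.all fun w => (pre z w && pre w z) || not (inf z w)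

theorem free_spec {F : List (List ℕ)} (h : free F = true) {z w : List ℕ} (hz : z ∈ F)
    (hw : w ∈ F) (h1 : z <:+: w) : z = w := by
  unfold free at h
  rw [List.all_eq_true] at h
  have h3 := h z hz
  rw [List.all_eq_true] at h3
  have h4 := h3 w hw
  rw [Bool.or_eq_true, Bool.and_eq_true, pre_iff, pre_iff] at h4
  rcases h4 with ⟨h5, h6⟩ | h5
  · exact h5.eq_of_length (le_antisymm h5.length_le h6.length_le)
  · rw [(inf_iff z w).2 h1] at h5
    simp at h5

/-- all overlaps of distinct members are at most `k` -/
def good (F : List (List ℕ)) (k : ℕ) : Bool :=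
  F.all fun z => F.all fun w => (pre z w && pre w z) || noOv k w z z.length

theorem good_spec {F : List (List ℕ)} {k : ℕ} (h : good F k = true) {z w : List ℕ} (hz : z ∈ F)
    (hw : w ∈ F) (hne : z ≠ w) {u : List ℕ} (h1 : u <:+ z) (h2 : u <+: w) : u.length ≤ k := by
  unfold good at h
  rw [List.all_eq_true] at h
  have h3 := h z hz
  rw [List.all_eq_true] at h3
  have h4 := h3 w hw
  rw [Bool.or_eq_true, Bool.and_eq_true, pre_iff, pre_iff] at h4
  rcases h4 with ⟨h5, h6⟩ | h5
  · exact absurd (h5.eq_of_length (le_antisymm h5.length_le h6.length_le)) hne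
  · exact noOv_spec k w z _ rfl h5 u h1 h2

/-- all overlaps of distinct members, except that of `x` and `y`, are at most `k` -/
def goodEx (x y : List ℕ) (F : List (List ℕ)) (k : ℕ) : Bool :=
  F.all fun z => F.all fun w => (pre z w && pre w z) || (pre z x && pre x z && (pre w y && pre y w))
    || noOv k w z z.length

theorem eq_of_pre {z w : List ℕ} (h : (pre z w && pre w z) = true) : z = w := by
  rw [Bool.and_eq_true, pre_iff, pre_iff] at h
  exact h.1.eq_of_length (le_antisymm h.1.length_le h.2.length_le)

theorem goodEx_spec {x y : List ℕ} {F : List (List ℕ)} {k : ℕ} (h : goodEx x y F k = true)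
    {z w : List ℕ} (hz : z ∈ F) (hw : w ∈ F) (hne : z ≠ w) (hxy : ¬ (z = x ∧ w = y))
    {u : List ℕ} (h1 : u <:+ z) (h2 : u <+: w) : u.length ≤ k := by
  unfold goodEx at h
  rw [List.all_eq_true] at h
  have h3 := h z hz
  rw [List.all_eq_true] at h3
  have h4 := h3 w hw
  rw [Bool.or_eq_true, Bool.or_eq_true] at h4
  rcases h4 with (h5 | h5) | h5
  · exact absurd (eq_of_pre h5) hne
  · rw [Bool.and_eq_true] at h5
    exact absurd ⟨eq_of_pre h5.1, eq_of_pre h5.2⟩ hxy
  · exact noOv_spec k w z _ rfl h5 u h1 h2

/-! ### Forced steps -/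

/-- every complete run from `F` ends with a string of length `n` -/
def Len (F : List (List ℕ)) (n : ℕ) : Prop :=
  ∀ (G : List (List ℕ)) (t : List ℕ), G.Perm F → Relation.ReflTransGen Greedy.Step G [t] →
    t.length = n

theorem not_single {G F : List (List ℕ)} {t : List ℕ} (h : G.Perm F) (hF : 2 ≤ F.length) :
    G ≠ [t] := by
  intro h1
  rw [← h.length_eq, h1] at hF
  simp at hF

theorem forced {F : List (List ℕ)} (x y m : List ℕ) (R : List (List ℕ)) (k n : ℕ)
    (hp : F.Perm (x :: y :: R)) (hnd : (x :: y :: R).Nodup)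
    (hky : k + 1 ≤ y.length) (hk : x.drop (x.length - (k + 1)) = y.take (k + 1))
    (hg : goodEx x y (x :: y :: R) k = true) (hgxy : noOv (k + 1) y x x.length = true)
    (hm : x.take (x.length - (k + 1)) ++ y = m)
    (hF : Len (m :: R) n) : Len F n := by
  intro G t hG hR
  have hGp : G.Perm (x :: y :: R) := hG.trans hp
  rcases Relation.ReflTransGen.cases_head hR with h | ⟨F', hs, hR'⟩
  · exact absurd h (not_single hGp (by simp))
  · obtain ⟨x', y', R', k', hp', hk', hmax, hF'⟩ := hs
    have hov : Greedy.IsOverlap x y (k + 1) := by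
      refine ⟨⟨y.take (k + 1), ?_, ?_, ?_⟩, ?_⟩
      · rw [List.length_take]
        omega
      · rw [← hk]
        exact List.drop_suffix _ _
      · exact List.take_prefix _ _
      · intro l hl
        obtain ⟨u, hu, h1, h2⟩ := hl
        rw [← hu]
        exact noOv_spec _ y x _ rfl hgxy u h1 h2
    have h1 : k + 1 ≤ k' := hmax x y R (k + 1) hGp hov
    have hq : (x' :: y' :: R').Perm (x :: y :: R) := hp'.symm.trans hGp
    have hnd' : (x' :: y' :: R').Nodup := hq.nodup_iff.2 hnd
    have hne : x' ≠ y' := by
      intro h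
      rw [List.nodup_cons] at hnd'
      exact hnd'.1 (by rw [h]; exact List.mem_cons_self)
    have hx' : x' ∈ x :: y :: R := hq.mem_iff.1 List.mem_cons_self
    have hy' : y' ∈ x :: y :: R := hq.mem_iff.1 (List.mem_cons_of_mem _ List.mem_cons_self)
    have hxy : x' = x ∧ y' = y := by
      by_contra h
      obtain ⟨u, hu, h3, h4⟩ := hk'.1
      have := goodEx_spec hg hx' hy' hne h h3 h4
      omega
    obtain ⟨rfl, rfl⟩ := hxy
    have hkk : k' = k + 1 := by
      refine le_antisymm (hov.2 hk'.1) h1
    have hR'' : R'.Perm R := by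
      have := hq
      rw [List.perm_cons, List.perm_cons] at this
      exact this
    refine hF F' t ?_ hR'
    rw [hF', hkk, hm]
    exact List.Perm.cons _ hR''

/-! ### Families without overlaps -/

/-- no overlaps and no substrings -/
def Zero (F : List (List ℕ)) : Prop :=
  F.Nodup ∧ (∀ z ∈ F, ∀ w ∈ F, z ≠ w → ¬ z <:+: w) ∧
    ∀ z ∈ F, ∀ w ∈ F, z ≠ w → ∀ u : List ℕ, u <:+ z → u <+: w → u = []

theorem zero_of {F : List (List ℕ)} (hnd : F.Nodup) (h1 : free F = true) (h2 : good F 0 = true) :
    Zero F := by
  refine ⟨hnd, ?_, ?_⟩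
  · intro z hz w hw hne h
    exact hne (free_spec h1 hz hw h)
  · intro z hz w hw hne u h3 h4
    have := good_spec h2 hz hw hne h3 h4
    exact List.length_eq_zero_iff.1 (by omega)

theorem infix_append_cases {z x y : List ℕ} (h : z <:+: x ++ y) :
    z <:+: x ∨ z <:+: y ∨ ∃ a b : List ℕ, a ≠ [] ∧ z = a ++ b ∧ a <:+ x ∧ b <+: y := by
  obtain ⟨p, q, hpq⟩ := h
  rw [List.append_assoc] at hpq
  rcases List.append_eq_append_iff.1 hpq with ⟨a, ha, hb⟩ | ⟨c, hc, hd⟩
  · -- x = p ++ a, z ++ q = a ++ y
    rcases List.append_eq_append_iff.1 hb with ⟨b, hb1, hb2⟩ | ⟨b, hb1, hb2⟩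
    · left
      exact ⟨p, b, by rw [ha, hb1]; simp⟩
    · by_cases h0 : a = []
      · right; left
        rw [h0] at hb1
        simp at hb1
        rw [hb1]
        exact ⟨[], q, by rw [hb2]; simp⟩
      · right; right
        exact ⟨a, b, h0, hb1, ⟨p, ha.symm⟩, ⟨q, hb2.symm⟩⟩
  · -- p = x ++ c, y = c ++ (z ++ q)
    right; left
    exact ⟨c, q, by rw [hd]; simp⟩

theorem zero_merge {x y : List ℕ} {R : List (List ℕ)} (h : Zero (x :: y :: R))
    (hx0 : x ≠ []) (hy0 : y ≠ []) : Zero ((x ++ y) :: R) := by
  obtain ⟨hnd, hf, ho⟩ := h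
  have hxm : x ∈ x :: y :: R := List.mem_cons_self
  have hym : y ∈ x :: y :: R := List.mem_cons_of_mem _ List.mem_cons_self
  have hRm : ∀ z ∈ R, z ∈ x :: y :: R := fun z hz =>
    List.mem_cons_of_mem _ (List.mem_cons_of_mem _ hz)
  have hxR : ∀ z ∈ R, z ≠ x := by
    intro z hz hzx
    rw [List.nodup_cons] at hnd
    exact hnd.1 (by rw [← hzx]; exact List.mem_cons_of_mem _ hz)
  have hyR : ∀ z ∈ R, z ≠ y := by
    intro z hz hzx
    rw [List.nodup_cons, List.nodup_cons] at hnd
    exact hnd.2.1 (by rw [← hzx]; exact hz)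
  have hA : ∀ z ∈ R, ¬ (x ++ y) <:+: z := by
    intro z hz h1
    exact hf x hxm z (hRm z hz) (hxR z hz).symm ((List.prefix_append x y).isInfix.trans h1)
  have hB : ∀ z ∈ R, ¬ z <:+: (x ++ y) := by
    intro z hz h1
    rcases infix_append_cases h1 with h2 | h2 | ⟨a, b, ha, hab, h3, _⟩
    · exact hf z (hRm z hz) x hxm (hxR z hz) h2
    · exact hf z (hRm z hz) y hym (hyR z hz) h2
    · exact ha (ho x hxm z (hRm z hz) (hxR z hz).symm a h3 (by rw [hab]; exact List.prefix_append _ _))
  refine ⟨?_, ?_, ?_⟩
  · rw [List.nodup_cons]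
    refine ⟨?_, ?_⟩
    · intro h1
      exact hB _ h1 (List.infix_refl _)
    · rw [List.nodup_cons, List.nodup_cons] at hnd
      exact hnd.2.2
  · intro z hz w hw hne h1
    rcases List.mem_cons.1 hz with rfl | hz
    · rcases List.mem_cons.1 hw with rfl | hw
      · exact hne rfl
      · exact hA w hw h1
    · rcases List.mem_cons.1 hw with rfl | hw
      · exact hB z hz h1
      · exact hf z (hRm z hz) w (hRm w hw) hne h1
  · intro z hz w hw hne u h1 h2
    rcases List.mem_cons.1 hz with rfl | hz
    · rcases List.mem_cons.1 hw with rfl | hw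
      · exact absurd rfl hne
      · -- u suffix of x ++ y, prefix of w
        rcases List.suffix_or_suffix_of_suffix h1 (List.suffix_append x y) with h3 | h3
        · exact ho y hym w (hRm w hw) (hyR w hw).symm u h3 h2
        · exact absurd (h3.isInfix.trans h2.isInfix) (hf y hym w (hRm w hw) (hyR w hw).symm)
    · rcases List.mem_cons.1 hw with rfl | hw
      · rcases List.prefix_or_prefix_of_prefix h2 (List.prefix_append x y) with h3 | h3
        · exact ho z (hRm z hz) x hxm (hxR z hz) u h1 h3
        · exact absurd (h3.isInfix.trans h1.isInfix) (hf x hxm z (hRm z hz) (hxR z hz).symm)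
      · exact ho z (hRm z hz) w (hRm w hw) hne u h1 h2

theorem len_of_zero : ∀ (n : ℕ) (F : List (List ℕ)), F.length = n → Zero F → (∀ z ∈ F, z ≠ []) →
    Len F (F.map List.length).sum := by
  intro n
  induction n with
  | zero =>
      intro F hn hZ h0 G t hG hR
      have : F = [] := List.length_eq_zero_iff.1 hn
      subst this
      have hG' : G = [] := List.perm_nil.1 hG
      subst hG'
      rcases Relation.ReflTransGen.cases_head hR with h | ⟨F', hs, _⟩
      · simp at h
      · obtain ⟨x', y', R', k', hp', _⟩ := hs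
        have := hp'.length_eq
        simp at this
  | succ n ih =>
      intro F hn hZ h0 G t hG hR
      rcases Relation.ReflTransGen.cases_head hR with h | ⟨F', hs, hR'⟩
      · have h1 : (G.map List.length).sum = (F.map List.length).sum :=
          (hG.map _).sum_eq
        rw [← h1, h]
        simp
      · obtain ⟨x, y, R, k, hp, hk, _, hF'⟩ := hs
        have hq : (x :: y :: R).Perm F := hp.symm.trans hG
        have hZ' : Zero (x :: y :: R) := by
          refine ⟨hq.nodup_iff.2 hZ.1, ?_, ?_⟩
          · intro z hz w hw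
            exact hZ.2.1 z (hq.mem_iff.1 hz) w (hq.mem_iff.1 hw)
          · intro z hz w hw
            exact hZ.2.2 z (hq.mem_iff.1 hz) w (hq.mem_iff.1 hw)
        have hxy : x ≠ y := by
          intro h
          have := hZ'.1
          rw [List.nodup_cons] at this
          exact this.1 (by rw [h]; exact List.mem_cons_self)
        have hk0 : k = 0 := by
          obtain ⟨u, hu, h3, h4⟩ := hk.1
          have := hZ'.2.2 x List.mem_cons_self y (List.mem_cons_of_mem _ List.mem_cons_self) hxy
            u h3 h4
          rw [← hu, this]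
          rfl
        have hx0 : x ≠ [] := h0 x (hq.mem_iff.1 List.mem_cons_self)
        have hy0 : y ≠ [] := h0 y (hq.mem_iff.1 (List.mem_cons_of_mem _ List.mem_cons_self))
        have hF'' : F' = (x ++ y) :: R := by
          rw [hF', hk0]
          simp
        have hlen : ((x ++ y) :: R).length = n := by
          have := hq.length_eq
          simp at this
          simp
          omega
        have h00 : ∀ z ∈ (x ++ y) :: R, z ≠ [] := by
          intro z hz
          rcases List.mem_cons.1 hz with rfl | hz
          · simp [hx0]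
          · exact h0 z (hq.mem_iff.1 (List.mem_cons_of_mem _ (List.mem_cons_of_mem _ hz)))
        have := ih _ hlen (zero_merge hZ' hx0 hy0) h00 F' t (by rw [hF'']) hR'
        rw [this]
        have h1 : ((x :: y :: R).map List.length).sum = (F.map List.length).sum :=
          (hq.map _).sum_eq
        rw [← h1]
        simp
        omega

theorem output_len {S : List (List ℕ)} {n : ℕ} (hnd : S.Nodup) (hf : free S = true)
    (hL : Len S n) : ∀ t, Greedy.Output S t → t.length = n := by
  intro t ht
  obtain ⟨F, hF, hR⟩ := ht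
  have hp : F.Perm S := by
    rw [List.perm_ext_iff_of_nodup hF.1 hnd]
    intro a
    rw [hF.2 a]
    constructor
    · exact fun h => h.1
    · intro h
      exact ⟨h, fun t ht h1 => free_spec hf h ht h1⟩
  exact hL F t hp hR

theorem reduced_self {S : List (List ℕ)} (hnd : S.Nodup) (hf : free S = true) :
    Greedy.Reduced S S :=
  ⟨hnd, fun _ => ⟨fun h => ⟨h, fun _ ht h1 => free_spec hf h ht h1⟩, fun h => h.1⟩⟩

theorem opt_le {S : List (List ℕ)} {T : List ℕ} (h : S.all (fun s => inf s T) = true) :
    opt S ≤ T.length := by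
  refine Nat.sInf_le ⟨T, ?_, rfl⟩
  intro s hs
  rw [List.all_eq_true] at h
  exact (inf_iff s T).1 (h s hs)

end Vale.Agent.P333.H241
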